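import Mathlib.Topology.Compactness.Paracompact
import Mathlib.Geometry.Manifold.ChartedSpace
import Mathlib.Analysis.Normed.Module.FiniteDimension

/-!
# A locally finite sequence of compact sets in charts
-/

open scoped Topology
open Set Filter

noncomputable section

namespace Vale.Agent.P210.R2.H81

/-- A locally finite sequence of compact sets covering a manifold, each empty or inside the
source of a preferred chart. -/
theorem exists_chart_cover_or (V : Type) [NormedAddCommGroup V] [NormedSpace ℝ V]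
    [FiniteDimensional ℝ V] (X : Type) [TopologicalSpace X] [T2Space X] [SigmaCompactSpace X]
    [ChartedSpace V X] :
    ∃ C : ℕ → Set X, (∀ i, IsCompact (C i)) ∧ LocallyFinite C ∧ (⋃ i, C i) = univ ∧
      ∀ i, C i = ∅ ∨ ∃ x : X, C i ⊆ (chartAt V x).source := by
  have hP : ProperSpace V := FiniteDimensional.proper ℝ V
  have hL : LocallyCompactSpace X := ChartedSpace.locallyCompactSpace V X
  have hb : ∀ x : X, (𝓝 x).HasBasis
      (fun s : Set X => (s ∈ 𝓝 x ∧ IsCompact s) ∧ s ⊆ (chartAt V x).source) (fun s => s) :=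
    fun x => (compact_basis_nhds x).restrict_subset (chart_source_mem_nhds V x)
  obtain ⟨α, c, r, hp, hU, hfin⟩ := refinement_of_locallyCompact_sigmaCompact_of_nhds_basis hb
  have hne : ∀ a, (r a).Nonempty := fun a => ⟨c a, mem_of_mem_nhds (hp a).1.1⟩
  have hcount : (univ : Set α).Countable := hfin.countable_univ hne
  have hcα : Countable α := countable_univ_iff.1 hcount
  obtain ⟨f, hf⟩ := hcα.exists_injective_nat
  refine ⟨fun n => ⋃ a ∈ f ⁻¹' {n}, r a, ?_, ?_, ?_, ?_⟩
  · intro n
    have h1 : (f ⁻¹' {n}).Subsingleton := by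
      intro a ha b hb'
      exact hf (ha.trans hb'.symm)
    exact h1.finite.isCompact_biUnion fun a _ => (hp a).1.2
  · intro x
    obtain ⟨t, ht, htf⟩ := hfin x
    refine ⟨t, ht, (htf.image f).subset ?_⟩
    rintro n ⟨y, hy, hyt⟩
    simp only [mem_iUnion] at hy
    obtain ⟨a, ha, hya⟩ := hy
    exact ⟨a, ⟨y, hya, hyt⟩, ha⟩
  · refine univ_subset_iff.1 fun x _ => ?_
    have hx : x ∈ ⋃ a, r a := hU ▸ mem_univ x
    obtain ⟨a, ha⟩ := mem_iUnion.1 hx
    exact mem_iUnion.2 ⟨f a, mem_iUnion₂.2 ⟨a, rfl, ha⟩⟩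
  · intro n
    by_cases h : ∃ a, f a = n
    · obtain ⟨a, rfl⟩ := h
      refine Or.inr ⟨c a, iUnion₂_subset fun b hb' => ?_⟩
      have : b = a := hf hb'
      rw [this]
      exact (hp a).2
    · refine Or.inl ?_
      rw [eq_empty_iff_forall_notMem]
      intro x hx
      simp only [mem_iUnion] at hx
      obtain ⟨a, ha, -⟩ := hx
      exact h ⟨a, ha⟩

/-- D5: a locally finite sequence of compact sets in charts. (For empty `X` there is no
`OpenPartialHomeomorph X V`, so `Nonempty X` is needed.) -/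
theorem exists_chart_cover (V : Type) [NormedAddCommGroup V] [NormedSpace ℝ V]
    [FiniteDimensional ℝ V] (X : Type) [TopologicalSpace X] [T2Space X] [SigmaCompactSpace X]
    [ChartedSpace V X] [Nonempty X] :
    ∃ C : ℕ → Set X, (∀ i, IsCompact (C i)) ∧ LocallyFinite C ∧ (⋃ i, C i) = univ ∧
      ∀ i, ∃ e : OpenPartialHomeomorph X V, C i ⊆ e.source := by
  obtain ⟨C, h1, h2, h3, h4⟩ := exists_chart_cover_or V X
  refine ⟨C, h1, h2, h3, fun i => ?_⟩
  rcases h4 i with h | ⟨x, hx⟩
  · exact ⟨chartAt V (Classical.arbitrary X), h ▸ empty_subset _⟩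
  · exact ⟨chartAt V x, hx⟩

end Vale.Agent.P210.R2.H81
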